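import Vale.Agent.P171.Bridge

namespace Vale.Agent.Results.P171.Main

open Vale.Agent.P171 Set MeasureTheory

/-- Some stable tempered radial pair potential on `ℝ³` has a phase transition: its pressure is not
differentiable in the activity at inverse temperature `1`. -/
theorem result :
    ∃ φ : ℝ → ℝ, Measurable φ ∧ LocallyBounded φ ∧ Stable φ ∧ Tempered φ ∧
      (∃ M, ∀ r, |φ r| ≤ M) ∧ (∀ r, 2 ≤ r → φ r ≤ 0) ∧
      IntegrableOn (fun r : ℝ => r ^ 2 * |φ r|) (Ioi 0) ∧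
      ∃ p : ℝ → ℝ, IsPressure φ 1 p ∧ ∃ z : ℝ, 0 < z ∧ ¬ DifferentiableAt ℝ p z :=
  Vale.Agent.P171.main

end Vale.Agent.Results.P171.Main
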